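import Mathlib
import Vale.Agent.H17.MakerBreaker
import Vale.Agent.H17.Snaky

/-!
P062 (Snaky achievement game): on every board contained in a strip of five consecutive rows of
the square grid (in particular on the infinite strip `ℤ × {0,…,4}` itself and on all `5 × m`
boards), Maker has no winning strategy in the Snaky achievement game: Breaker wins by an explicit
pairing strategy of period three.
-/

namespace Vale.Agent.Results.P062.A_StripFive

open Vale.Agent.H17.MakerBreaker Vale.Agent.H17.Snaky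

/-- The pairing on the strip `ℤ × {0,…,4}` (period three in the first coordinate); cells outside
the strip and the cells `(3j+1, 2)` are paired with themselves (i.e. unpaired). -/
def partner5 (c : ℤ × ℤ) : ℤ × ℤ :=
  if c.2 = 0 then
    (if c.1 % 3 = 0 then (c.1, 1) else if c.1 % 3 = 1 then (c.1 + 1, 0) else (c.1 - 1, 0))
  else if c.2 = 1 then
    (if c.1 % 3 = 0 then (c.1, 0) else if c.1 % 3 = 1 then (c.1 + 1, 1) else (c.1 - 1, 1))
  else if c.2 = 2 then
    (if c.1 % 3 = 0 then (c.1 - 1, 2) else if c.1 % 3 = 1 then c else (c.1 + 1, 2))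
  else if c.2 = 3 then
    (if c.1 % 3 = 0 then (c.1, 4) else if c.1 % 3 = 1 then (c.1 + 1, 3) else (c.1 - 1, 3))
  else if c.2 = 4 then
    (if c.1 % 3 = 0 then (c.1, 3) else if c.1 % 3 = 1 then (c.1 - 2, 4) else (c.1 + 2, 4))
  else c

lemma partner5_shift (x y q : ℤ) :
    partner5 (x + 3 * q, y) = ((partner5 (x, y)).1 + 3 * q, (partner5 (x, y)).2) := by
  have h : (x + 3 * q) % 3 = x % 3 := by omega
  unfold partner5
  simp only [h]
  split_ifs <;> simp <;> ring

lemma partner5_invol_small : ∀ r ∈ Finset.Icc (0 : ℤ) 2, ∀ y ∈ Finset.Icc (0 : ℤ) 4,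
    partner5 (partner5 (r, y)) = (r, y) := by decide

lemma partner5_invol (c : ℤ × ℤ) : partner5 (partner5 c) = c := by
  obtain ⟨x, y⟩ := c
  by_cases hy : 0 ≤ y ∧ y ≤ 4
  · have hx : x = x % 3 + 3 * (x / 3) := by omega
    have hr : x % 3 ∈ Finset.Icc (0 : ℤ) 2 := by
      rw [Finset.mem_Icc]; omega
    have hy' : y ∈ Finset.Icc (0 : ℤ) 4 := by
      rw [Finset.mem_Icc]; exact hy
    have h0 := partner5_invol_small (x % 3) hr y hy'
    rw [hx, partner5_shift, partner5_shift]
    have h1 : (partner5 (x % 3, y)).1 = (partner5 (x % 3, y)).1 ∧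
        (partner5 (x % 3, y)).2 = (partner5 (x % 3, y)).2 := ⟨rfl, rfl⟩
    rw [show ((partner5 (x % 3, y)).1, (partner5 (x % 3, y)).2) = partner5 (x % 3, y) from rfl, h0]
  · have h1 : partner5 (x, y) = (x, y) := by
      unfold partner5
      have h0 : y ≠ 0 := by omega
      have h1 : y ≠ 1 := by omega
      have h2 : y ≠ 2 := by omega
      have h3 : y ≠ 3 := by omega
      have h4 : y ≠ 4 := by omega
      simp [h0, h1, h2, h3, h4]
    rw [h1, h1]

/-- The six cells of the copy `t + R(S)`, listed. -/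
def copyCell (s : Bool) (e1 e2 : ℤ) (t : ℤ × ℤ) (i : Fin 6) : ℤ × ℤ :=
  t + signedPerm s e1 e2
    (match i with
      | 0 => (0, 0)
      | 1 => (1, 0)
      | 2 => (2, 0)
      | 3 => (3, 0)
      | 4 => (3, 1)
      | 5 => (4, 1))

lemma copyCell_shift (s : Bool) (e1 e2 x y q : ℤ) (i : Fin 6) :
    copyCell s e1 e2 (x + 3 * q, y) i =
      ((copyCell s e1 e2 (x, y) i).1 + 3 * q, (copyCell s e1 e2 (x, y) i).2) := by
  unfold copyCell
  ext <;> simp <;> ring

lemma mem_copy_iff (s : Bool) (e1 e2 : ℤ) (t c : ℤ × ℤ) :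
    c ∈ (fun p => t + signedPerm s e1 e2 p) '' snakyCells ↔ ∃ i, copyCell s e1 e2 t i = c := by
  constructor
  · rintro ⟨p, hp, rfl⟩
    simp only [snakyCells, Set.mem_insert_iff, Set.mem_singleton_iff] at hp
    rcases hp with rfl | rfl | rfl | rfl | rfl | rfl
    · exact ⟨0, rfl⟩
    · exact ⟨1, rfl⟩
    · exact ⟨2, rfl⟩
    · exact ⟨3, rfl⟩
    · exact ⟨4, rfl⟩
    · exact ⟨5, rfl⟩
  · rintro ⟨i, rfl⟩
    refine ⟨_, ?_, rfl⟩
    simp only [snakyCells, Set.mem_insert_iff, Set.mem_singleton_iff]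
    fin_cases i <;> simp

/-- Finite check: every copy in the strip with `0 ≤ t.1 ≤ 2` contains a pair. -/
lemma pair_small : ∀ s : Bool, ∀ e1 ∈ ({1, -1} : Finset ℤ), ∀ e2 ∈ ({1, -1} : Finset ℤ),
    ∀ r ∈ Finset.Icc (0 : ℤ) 2, ∀ y ∈ Finset.Icc (0 : ℤ) 4,
      (∀ i : Fin 6, 0 ≤ (copyCell s e1 e2 (r, y) i).2 ∧ (copyCell s e1 e2 (r, y) i).2 < 5) →
        ∃ i j : Fin 6, partner5 (copyCell s e1 e2 (r, y) i) = copyCell s e1 e2 (r, y) j ∧
          copyCell s e1 e2 (r, y) j ≠ copyCell s e1 e2 (r, y) i := by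
  decide

/-- Every allowed copy of Snaky inside the strip of rows `0,…,4` contains two distinct cells
paired by `partner5`. -/
lemma pair_in_copy (A : Set (ℤ × ℤ)) (hA : IsSnakyCopy A) (hstrip : ∀ c ∈ A, 0 ≤ c.2 ∧ c.2 < 5) :
    ∃ x ∈ A, partner5 x ≠ x ∧ partner5 x ∈ A := by
  obtain ⟨s, e1, e2, ⟨x, y⟩, he1, he2, rfl⟩ := hA
  have hcell : ∀ i : Fin 6, 0 ≤ (copyCell s e1 e2 (x, y) i).2 ∧
      (copyCell s e1 e2 (x, y) i).2 < 5 := fun i =>
    hstrip _ ((mem_copy_iff s e1 e2 (x, y) _).2 ⟨i, rfl⟩)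
  have hy : y ∈ Finset.Icc (0 : ℤ) 4 := by
    have h0 := hcell 0
    have : copyCell s e1 e2 (x, y) 0 = (x, y) := by
      unfold copyCell signedPerm
      cases s <;> simp
    rw [this] at h0
    rw [Finset.mem_Icc]
    constructor
    · exact h0.1
    · have := h0.2
      simp only at this
      omega
  have hx : x = x % 3 + 3 * (x / 3) := by omega
  have hr : x % 3 ∈ Finset.Icc (0 : ℤ) 2 := by
    rw [Finset.mem_Icc]; omega
  have he1' : e1 ∈ ({1, -1} : Finset ℤ) := by
    simp only [Finset.mem_insert, Finset.mem_singleton]; exact he1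
  have he2' : e2 ∈ ({1, -1} : Finset ℤ) := by
    simp only [Finset.mem_insert, Finset.mem_singleton]; exact he2
  have hcell' : ∀ i : Fin 6, 0 ≤ (copyCell s e1 e2 (x % 3, y) i).2 ∧
      (copyCell s e1 e2 (x % 3, y) i).2 < 5 := by
    intro i
    have h := hcell i
    rw [hx, copyCell_shift] at h
    exact h
  obtain ⟨i, j, hij, hne⟩ := pair_small s e1 he1' e2 he2' (x % 3) hr y hy hcell'
  have hi : copyCell s e1 e2 (x, y) i =
      ((copyCell s e1 e2 (x % 3, y) i).1 + 3 * (x / 3), (copyCell s e1 e2 (x % 3, y) i).2) := by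
    conv_lhs => rw [hx]
    exact copyCell_shift s e1 e2 (x % 3) y (x / 3) i
  have hj : copyCell s e1 e2 (x, y) j =
      ((copyCell s e1 e2 (x % 3, y) j).1 + 3 * (x / 3), (copyCell s e1 e2 (x % 3, y) j).2) := by
    conv_lhs => rw [hx]
    exact copyCell_shift s e1 e2 (x % 3) y (x / 3) j
  have hpart : partner5 (copyCell s e1 e2 (x, y) i) = copyCell s e1 e2 (x, y) j := by
    rw [hi, partner5_shift, hj]
    rw [show ((copyCell s e1 e2 (x % 3, y) i).1, (copyCell s e1 e2 (x % 3, y) i).2) =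
      copyCell s e1 e2 (x % 3, y) i from rfl, hij]
  refine ⟨copyCell s e1 e2 (x, y) i, (mem_copy_iff s e1 e2 (x, y) _).2 ⟨i, rfl⟩, ?_, ?_⟩
  · rw [hpart, hi, hj]
    intro h
    apply hne
    have h1 := congrArg Prod.fst h
    have h2 := congrArg Prod.snd h
    simp only [add_left_inj] at h1 h2
    exact Prod.ext h1 h2
  · rw [hpart]
    exact (mem_copy_iff s e1 e2 (x, y) _).2 ⟨j, rfl⟩

/-- **Breaker wins Snaky on every board inside a strip of five rows.**
For every set of cells `Bd` contained in the strip `ℤ × {0,…,4}` of the square grid (in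
particular for the whole infinite strip), Maker has no winning strategy in the Snaky achievement
game played on `Bd` from the empty position (Maker moving first, no handicap). -/
theorem result (Bd : Set (ℤ × ℤ)) (hBd : ∀ c ∈ Bd, 0 ≤ c.2 ∧ c.2 < 5) :
    ¬ MakerWins Bd IsSnakyCopy ∅ ∅ :=
  not_makerWins_of_pairing Bd IsSnakyCopy partner5 partner5_invol
    (fun S hS hSb => pair_in_copy S hS (fun c hc => hBd c (hSb hc)))

end Vale.Agent.Results.P062.A_StripFive
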