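import Mathlib
import Vale.Agent.H17.MakerBreaker
import Vale.Agent.H17.Snaky
import Vale.Agent.Results.P062.A_StripFive

/-!
P062 (Snaky achievement game): the strip of five rows, game form and pairing form.

(1) On every board contained in the strip `ℤ × {0,…,4}` of the square grid (in particular on the
infinite strip itself and on all `5 × m` boards), Maker has no winning strategy in the Snaky
achievement game from the empty position (Maker moving first, no handicap).

(2) Breaker has a pairing strategy on the strip: there is a map `partner` of the cells with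
`partner (partner c) = c` for every cell `c` (so the sets `{c, partner c}` with `partner c ≠ c`
are pairwise disjoint pairs of cells) such that every allowed copy of Snaky inside the strip
contains two distinct cells `x` and `partner x`.

Statement (1) is the statement of `A_StripFive`; it follows from (2) by the pairing criterion.
-/

namespace Vale.Agent.Results.P062.B_StripFivePairing

open Vale.Agent.H17.MakerBreaker Vale.Agent.H17.Snaky

theorem result :
    (∀ Bd : Set (ℤ × ℤ), (∀ c ∈ Bd, 0 ≤ c.2 ∧ c.2 < 5) → ¬ MakerWins Bd IsSnakyCopy ∅ ∅) ∧
    (∃ partner : ℤ × ℤ → ℤ × ℤ, (∀ c, partner (partner c) = c) ∧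
      ∀ A : Set (ℤ × ℤ), IsSnakyCopy A → (∀ c ∈ A, 0 ≤ c.2 ∧ c.2 < 5) →
        ∃ x ∈ A, partner x ≠ x ∧ partner x ∈ A) :=
  ⟨fun Bd hBd => Vale.Agent.Results.P062.A_StripFive.result Bd hBd,
    ⟨Vale.Agent.Results.P062.A_StripFive.partner5,
      Vale.Agent.Results.P062.A_StripFive.partner5_invol,
      fun A hA hstrip => Vale.Agent.Results.P062.A_StripFive.pair_in_copy A hA hstrip⟩⟩

end Vale.Agent.Results.P062.B_StripFivePairing
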